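import Vale.Agent.P063.Final

namespace Vale.Agent.Results.P063.FriedgutKalai
open Vale.Agent.P063

theorem result : ∀ r : ℕ, 2 ≤ r → ∀ ε : ℝ, 0 < ε → ε < 1 / 2 → ∃ C : ℝ, ∀ n : ℕ, r ≤ n →
    ∀ P : Set (Edge n r → Bool), IsProperty P → Increasing P → P.Nonempty → P ≠ Set.univ →
      width P ε ≤ C * Real.log n ^ (-((r : ℝ) / ((r : ℝ) - 1))) := by
  intro r hr ε h0 h1
  obtain ⟨C, hC⟩ := main r hr ε h0 h1
  exact ⟨C, fun n hn P hP hI hne _ => hC n hn P hP hI hne⟩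

end Vale.Agent.Results.P063.FriedgutKalai
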